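import Mathlib.Analysis.InnerProductSpace.ProdL2

namespace Vale.Agent.P220.R2.H506

theorem finrank_iso_add_one {E : Type} [NormedAddCommGroup E] [InnerProductSpace ℝ E]
    [FiniteDimensional ℝ E] {T : Submodule ℝ (E × E)}
    (hiso : ∀ v ∈ T, ∀ w ∈ T, (inner ℝ v.2 w.1 : ℝ) = inner ℝ w.2 v.1)
    {W : Submodule ℝ E} (hf : ∀ v ∈ T, v.1 ∈ W) (hs : ∀ v ∈ T, v.2 ∈ W) {ξ : E} (hξ : ξ ∈ W)
    (hp : ∀ v ∈ T, inner ℝ ξ v.1 = (0 : ℝ)) (hn : ((0 : E), ξ) ∉ T) :
    Module.finrank ℝ T + 1 ≤ Module.finrank ℝ W := by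
  set f : T →ₗ[ℝ] E := (LinearMap.fst ℝ E E).comp T.subtype with hfdef
  set F : Submodule ℝ E := LinearMap.range f with hF
  set K : Submodule ℝ E := T.comap (LinearMap.inr ℝ E E) with hK
  have hKmem : ∀ x, x ∈ K ↔ ((0 : E), x) ∈ T := fun x => Iff.rfl
  have hrn : Module.finrank ℝ F + Module.finrank ℝ (LinearMap.ker f) = Module.finrank ℝ T :=
    f.finrank_range_add_finrank_ker
  -- the kernel of the first projection
  have hker : Module.finrank ℝ (LinearMap.ker f) ≤ Module.finrank ℝ K := by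
    have hmem : ∀ x : LinearMap.ker f, x.1.1.2 ∈ K := by
      intro x
      have h1 : x.1.1.1 = 0 := x.2
      have h2 : x.1.1 ∈ T := x.1.2
      rw [hKmem]
      have h3 : ((0 : E), x.1.1.2) = x.1.1 := by rw [← h1]
      rw [h3]
      exact h2
    let g : LinearMap.ker f →ₗ[ℝ] K :=
      (((LinearMap.snd ℝ E E).comp T.subtype).comp (LinearMap.ker f).subtype).codRestrict K hmem
    refine LinearMap.finrank_le_finrank_of_injective (f := g) ?_
    intro x y hxy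
    have e1 : x.1.1.2 = y.1.1.2 := congrArg Subtype.val hxy
    have e2 : x.1.1.1 = 0 := x.2
    have e3 : y.1.1.1 = 0 := y.2
    exact Subtype.ext (Subtype.ext (Prod.ext (e2.trans e3.symm) e1))
  have hξ0 : ξ ≠ 0 := by
    intro h
    apply hn
    rw [h]
    exact T.zero_mem
  have hξK : ξ ∉ K := hn
  have hd1 : K ⊓ Submodule.span ℝ {ξ} = ⊥ := by
    rw [eq_bot_iff]
    rintro x ⟨hx1, hx2⟩
    obtain ⟨c, rfl⟩ := Submodule.mem_span_singleton.1 hx2
    by_cases hc : c = 0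
    · rw [hc, zero_smul]
      exact Submodule.zero_mem _
    · exfalso
      apply hξK
      have := K.smul_mem c⁻¹ hx1
      rwa [smul_smul, inv_mul_cancel₀ hc, one_smul] at this
  have hG := Submodule.finrank_sup_add_finrank_inf_eq K (Submodule.span ℝ {ξ})
  rw [hd1, finrank_bot, finrank_span_singleton hξ0] at hG
  have horth : ∀ x ∈ F, ∀ y ∈ K ⊔ Submodule.span ℝ {ξ}, (inner ℝ y x : ℝ) = 0 := by
    rintro _ ⟨v, rfl⟩ y hy
    obtain ⟨a, ha, b, hb, rfl⟩ := Submodule.mem_sup.1 hy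
    obtain ⟨c, rfl⟩ := Submodule.mem_span_singleton.1 hb
    have h1 := hiso (0, a) ha v.1 v.2
    have h2 := hp v.1 v.2
    simp only [inner_zero_right] at h1
    have h3 : f v = v.1.1 := rfl
    rw [inner_add_left, inner_smul_left, h3, h1, h2]
    simp
  have hd2 : F ⊓ (K ⊔ Submodule.span ℝ {ξ}) = ⊥ := by
    rw [eq_bot_iff]
    rintro x ⟨hx1, hx2⟩
    have := horth x hx1 x hx2
    rw [inner_self_eq_zero] at this
    rw [this]
    exact Submodule.zero_mem _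
  have hS := Submodule.finrank_sup_add_finrank_inf_eq F (K ⊔ Submodule.span ℝ {ξ})
  rw [hd2, finrank_bot] at hS
  have hle : F ⊔ (K ⊔ Submodule.span ℝ {ξ}) ≤ W := by
    refine sup_le ?_ (sup_le ?_ ?_)
    · rintro _ ⟨v, rfl⟩
      exact hf v.1 v.2
    · intro x hx
      exact hs _ hx
    · rw [Submodule.span_singleton_le_iff_mem]
      exact hξ
  have hm := Submodule.finrank_mono hle
  omega

theorem row_D {E : Type} [NormedAddCommGroup E] [InnerProductSpace ℝ E] [FiniteDimensional ℝ E]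
    {T : Submodule ℝ (E × E)}
    (hiso : ∀ v ∈ T, ∀ w ∈ T, (inner ℝ v.2 w.1 : ℝ) = inner ℝ w.2 v.1)
    {R : E →L[ℝ] E} (hR : ∀ x, R (R x) = x) (hRT : ∀ v ∈ T, (R v.1, R v.2) ∈ T)
    {W W' : Submodule ℝ E} (hW : ∀ x, x ∈ W ↔ R x = x) (hW' : ∀ x, x ∈ W' ↔ R x = -x)
    {k k' : ℕ} (hk : Module.finrank ℝ W ≤ k + 1) (hk' : Module.finrank ℝ W' ≤ k' + 1)
    (hT : Module.finrank ℝ T = k + k') {ξ ξ' : E} (hξ : ξ ∈ W) (hξ' : ξ' ∈ W')
    (h1 : ∀ v ∈ T, inner ℝ ξ v.1 = (0 : ℝ)) (h2 : ∀ v ∈ T, inner ℝ ξ' v.1 = (0 : ℝ))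
    (h3 : ((0 : E), ξ) ∉ T) (h4 : ((0 : E), ξ') ∉ T) {T' : Submodule ℝ (E × E)}
    (hT' : ∀ v, v ∈ T' ↔ v ∈ T ∧ (R v.1, R v.2) = v) : Module.finrank ℝ T' = k := by
  set T1 : Submodule ℝ (E × E) := T ⊓ W'.prod W' with hT1
  have hle' : T' ≤ T := fun v hv => ((hT' v).1 hv).1
  have a1 : ∀ v ∈ T', v.1 ∈ W := fun v hv => (hW _).2 (congrArg Prod.fst ((hT' v).1 hv).2)
  have a2 : ∀ v ∈ T', v.2 ∈ W := fun v hv => (hW _).2 (congrArg Prod.snd ((hT' v).1 hv).2)
  have b1 := finrank_iso_add_one (fun v hv w hw => hiso v (hle' hv) w (hle' hw)) a1 a2 hξ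
    (fun v hv => h1 v (hle' hv)) (fun h => h3 (hle' h))
  have b2 := finrank_iso_add_one (T := T1) (fun v hv w hw => hiso v hv.1 w hw.1)
    (fun v hv => hv.2.1) (fun v hv => hv.2.2) hξ' (fun v hv => h2 v hv.1) (fun h => h4 h.1)
  have hsup : T' ⊔ T1 = T := by
    apply le_antisymm (sup_le hle' inf_le_left)
    intro v hv
    have hRv := hRT v hv
    rw [Submodule.mem_sup]
    refine ⟨(2⁻¹ : ℝ) • (v + (R v.1, R v.2)), ?_, (2⁻¹ : ℝ) • (v - (R v.1, R v.2)), ?_, ?_⟩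
    · rw [hT']
      refine ⟨T.smul_mem _ (T.add_mem hv hRv), ?_⟩
      ext
      · simp only [Prod.smul_fst, Prod.fst_add, map_smul, map_add, hR]
        rw [add_comm]
      · simp only [Prod.smul_snd, Prod.snd_add, map_smul, map_add, hR]
        rw [add_comm]
    · refine ⟨T.smul_mem _ (T.sub_mem hv hRv), ?_, ?_⟩
      · show _ ∈ W'
        rw [hW']
        simp only [Prod.smul_fst, Prod.fst_sub, map_smul, map_sub, hR]
        rw [← smul_neg, neg_sub]
      · show _ ∈ W'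
        rw [hW']
        simp only [Prod.smul_snd, Prod.snd_sub, map_smul, map_sub, hR]
        rw [← smul_neg, neg_sub]
    · rw [← smul_add, add_add_sub_cancel, ← two_smul ℝ v, smul_smul]
      norm_num
  have hinf : T' ⊓ T1 = ⊥ := by
    rw [eq_bot_iff]
    rintro v ⟨hv1, hv2⟩
    have c1 := (hW _).1 (a1 v hv1)
    have c2 := (hW _).1 (a2 v hv1)
    have c3 := (hW' _).1 hv2.2.1
    have c4 := (hW' _).1 hv2.2.2
    have c5 : v.1 = -v.1 := c1.symm.trans c3
    have c6 : v.2 = -v.2 := c2.symm.trans c4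
    have hneg : ∀ x : E, x = -x → x = 0 := by
      intro x hx
      have h5 : (2 : ℝ) • x = 0 := by
        rw [two_smul]
        nth_rewrite 2 [hx]
        exact add_neg_cancel x
      exact (smul_eq_zero.1 h5).resolve_left two_ne_zero
    have c7 : v.1 = 0 := hneg _ c5
    have c8 : v.2 = 0 := hneg _ c6
    have : v = 0 := Prod.ext c7 c8
    rw [this]
    exact Submodule.zero_mem _
  have hsum := Submodule.finrank_sup_add_finrank_inf_eq T' T1
  rw [hsup, hinf, finrank_bot, hT] at hsum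
  omega

end Vale.Agent.P220.R2.H506
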