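import Mathlib.Analysis.InnerProductSpace.ProdL2

namespace Vale.Agent.P220.R2.H506

section

variable {V : Type} [NormedAddCommGroup V] [InnerProductSpace ℝ V]

theorem norm_inv_smul {v : V} (hv : v ≠ 0) : ‖‖v‖⁻¹ • v‖ = 1 := by
  rw [norm_smul, norm_inv, norm_norm, inv_mul_cancel₀ (norm_ne_zero_iff.2 hv)]

/-- the moment form vanishes on all pairs if it vanishes on the orthonormal ones -/
theorem mom_all {a b c d : V}
    (hm : ∀ v w : V, ‖v‖ = 1 → ‖w‖ = 1 → inner ℝ v w = (0 : ℝ) →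
      (inner ℝ v a * inner ℝ w c - inner ℝ w a * inner ℝ v c +
      (inner ℝ v b * inner ℝ w d - inner ℝ w b * inner ℝ v d) : ℝ) = 0) (v w : V) :
    (inner ℝ v a * inner ℝ w c - inner ℝ w a * inner ℝ v c +
      (inner ℝ v b * inner ℝ w d - inner ℝ w b * inner ℝ v d) : ℝ) = 0 := by
  by_cases hv : v = 0
  · simp [hv]
  have hvv : (inner ℝ v v : ℝ) ≠ 0 := by
    rw [Ne, inner_self_eq_zero]
    exact hv
  set s : ℝ := inner ℝ v w / inner ℝ v v with hs
  set x : V := w - s • v with hx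
  have hvx : (inner ℝ v x : ℝ) = 0 := by
    rw [hx, inner_sub_right, inner_smul_right, hs, div_mul_cancel₀ _ hvv, sub_self]
  have hw : w = x + s • v := by rw [hx, sub_add_cancel]
  have key : (inner ℝ v a * inner ℝ x c - inner ℝ x a * inner ℝ v c +
      (inner ℝ v b * inner ℝ x d - inner ℝ x b * inner ℝ v d) : ℝ) = 0 := by
    by_cases hx0 : x = 0
    · simp [hx0]
    have h := hm (‖v‖⁻¹ • v) (‖x‖⁻¹ • x) (norm_inv_smul hv) (norm_inv_smul hx0)
      (by simp only [inner_smul_left, inner_smul_right, hvx, mul_zero])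
    simp only [inner_smul_left, RCLike.conj_to_real] at h
    have hv' : ‖v‖⁻¹ ≠ 0 := inv_ne_zero (norm_ne_zero_iff.2 hv)
    have hx' : ‖x‖⁻¹ ≠ 0 := inv_ne_zero (norm_ne_zero_iff.2 hx0)
    have h2 : ‖v‖⁻¹ * (‖x‖⁻¹ * (inner ℝ v a * inner ℝ x c - inner ℝ x a * inner ℝ v c +
      (inner ℝ v b * inner ℝ x d - inner ℝ x b * inner ℝ v d))) = 0 := by
      rw [← h]
      ring
    exact (mul_eq_zero.1 ((mul_eq_zero.1 h2).resolve_left hv')).resolve_left hx'
  rw [hw]
  simp only [inner_add_left, inner_smul_left, RCLike.conj_to_real]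
  linarith [key]

theorem exists_unit_orth [FiniteDimensional ℝ V] (h2 : 2 ≤ Module.finrank ℝ V) (x : V) :
    ∃ u : V, ‖u‖ = 1 ∧ (inner ℝ x u : ℝ) = 0 := by
  have h1 : Module.finrank ℝ (Submodule.span ℝ {x}) ≤ 1 :=
    (finrank_span_le_card ({x} : Set V)).trans (by simp)
  have h3 := (Submodule.span ℝ {x}).finrank_add_finrank_orthogonal
  have h4 : 0 < Module.finrank ℝ (Submodule.span ℝ {x})ᗮ := by omega
  have := Module.finrank_pos_iff.1 h4
  obtain ⟨y, hy⟩ := exists_ne (0 : (Submodule.span ℝ {x})ᗮ)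
  have hy0 : (y : V) ≠ 0 := fun h => hy (Subtype.ext h)
  refine ⟨‖(y : V)‖⁻¹ • (y : V), norm_inv_smul hy0, ?_⟩
  rw [inner_smul_right, Submodule.mem_orthogonal_singleton_iff_inner_right.1 y.2, mul_zero]

theorem row_M' [FiniteDimensional ℝ V]
    (h2 : 2 ≤ Module.finrank ℝ V) {a b c d : V} (hab : inner ℝ a b = (0 : ℝ))
    (hn : a ≠ 0 ∨ b ≠ 0) (h1 : (inner ℝ a c + inner ℝ b d : ℝ) = 0)
    (h3 : (inner ℝ b c + inner ℝ a d : ℝ) = 0)
    (hm : ∀ v w : V, ‖v‖ = 1 → ‖w‖ = 1 → inner ℝ v w = (0 : ℝ) →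
      (inner ℝ v a * inner ℝ w c - inner ℝ w a * inner ℝ v c +
      (inner ℝ v b * inner ℝ w d - inner ℝ w b * inner ℝ v d) : ℝ) = 0) :
    ∃ e u : V, (‖e‖ = 1 ∧ ‖u‖ = 1 ∧ inner ℝ e u = (0 : ℝ)) ∧
      (∃ x y : ℝ, a = x • e ∧ c = y • e) ∧ ∃ x y : ℝ, b = x • u ∧ d = y • u := by
  have hM := mom_all hm
  have hba : inner ℝ b a = (0 : ℝ) := by rw [real_inner_comm]; exact hab
  -- the two vector identities
  have ha : (inner ℝ a c : ℝ) • a - (inner ℝ a a : ℝ) • c + (inner ℝ a d : ℝ) • b = 0 := by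
    refine ext_inner_left ℝ fun v => ?_
    rw [inner_zero_right]
    simp only [inner_add_right, inner_sub_right, inner_smul_right]
    have := hM v a
    rw [hab] at this
    linarith
  have hb : (inner ℝ b c : ℝ) • a + ((inner ℝ b d : ℝ) • b - (inner ℝ b b : ℝ) • d) = 0 := by
    refine ext_inner_left ℝ fun v => ?_
    rw [inner_zero_right]
    simp only [inner_add_right, inner_sub_right, inner_smul_right]
    have := hM v b
    rw [hba] at this
    linarith
  -- the mixed products vanish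
  have e1 : (inner ℝ a d * inner ℝ b b : ℝ) = inner ℝ a a * inner ℝ b c := by
    have := congrArg (fun z => (inner ℝ b z : ℝ)) ha
    simp only [inner_add_right, inner_sub_right, inner_smul_right, inner_zero_right, hba] at this
    linarith
  have haa : (0 : ℝ) ≤ inner ℝ a a := real_inner_self_nonneg
  have hbb : (0 : ℝ) ≤ inner ℝ b b := real_inner_self_nonneg
  have hpos : (0 : ℝ) < inner ℝ a a + inner ℝ b b := by
    rcases hn with h | h
    · have := real_inner_self_pos.2 h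
      linarith
    · have := real_inner_self_pos.2 h
      linarith
  have hbc : (inner ℝ b c : ℝ) = 0 := by
    have h5 : (inner ℝ b c : ℝ) * (inner ℝ a a + inner ℝ b b) = 0 := by
      have h6 : (inner ℝ a d : ℝ) = - inner ℝ b c := by linarith
      rw [h6] at e1
      linarith
    exact (mul_eq_zero.1 h5).resolve_right hpos.ne'
  have had : (inner ℝ a d : ℝ) = 0 := by linarith
  rw [had, zero_smul, add_zero, sub_eq_zero] at ha
  rw [hbc, zero_smul, zero_add, sub_eq_zero] at hb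
  have hnormal : ∀ {x y : V}, x ≠ 0 → (inner ℝ x y : ℝ) • x = (inner ℝ x x : ℝ) • y →
      y = (inner ℝ x y / inner ℝ x x * ‖x‖ : ℝ) • (‖x‖⁻¹ • x) := by
    intro x y hx hxy
    have hx' : ‖x‖ ≠ 0 := norm_ne_zero_iff.2 hx
    have hxx : (inner ℝ x x : ℝ) ≠ 0 := (real_inner_self_pos.2 hx).ne'
    rw [smul_smul, mul_assoc, mul_inv_cancel₀ hx', mul_one, div_eq_inv_mul, mul_smul, hxy,
      smul_smul, inv_mul_cancel₀ hxx, one_smul]
  have hself : ∀ {x : V}, x ≠ 0 → x = ‖x‖ • (‖x‖⁻¹ • x) := by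
    intro x hx
    rw [smul_smul, mul_inv_cancel₀ (norm_ne_zero_iff.2 hx), one_smul]
  by_cases ha0 : a = 0
  · have hb0 : b ≠ 0 := by
      rcases hn with h | h
      · exact absurd ha0 h
      · exact h
    have hbd : (inner ℝ b d : ℝ) = 0 := by
      rw [ha0, inner_zero_left] at h1
      linarith
    have hd : d = 0 := by
      rw [hbd, zero_smul] at hb
      exact (smul_eq_zero.1 hb.symm).resolve_left (real_inner_self_pos.2 hb0).ne'
    by_cases hc0 : c = 0
    · obtain ⟨e, he, hbe⟩ := exists_unit_orth h2 b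
      refine ⟨e, ‖b‖⁻¹ • b, ⟨he, norm_inv_smul hb0, ?_⟩, ⟨0, 0, by rw [ha0, zero_smul],
        by rw [hc0, zero_smul]⟩, ⟨‖b‖, 0, hself hb0, by rw [hd, zero_smul]⟩⟩
      rw [inner_smul_right, real_inner_comm, hbe, mul_zero]
    · refine ⟨‖c‖⁻¹ • c, ‖b‖⁻¹ • b, ⟨norm_inv_smul hc0, norm_inv_smul hb0, ?_⟩,
        ⟨0, ‖c‖, by rw [ha0, zero_smul], hself hc0⟩,
        ⟨‖b‖, 0, hself hb0, by rw [hd, zero_smul]⟩⟩
      rw [inner_smul_right, inner_smul_left, real_inner_comm, hbc, mul_zero, mul_zero]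
  · by_cases hb0 : b = 0
    · have hac : (inner ℝ a c : ℝ) = 0 := by
        rw [hb0, inner_zero_left] at h1
        linarith
      have hc : c = 0 := by
        rw [hac, zero_smul] at ha
        exact (smul_eq_zero.1 ha.symm).resolve_left (real_inner_self_pos.2 ha0).ne'
      by_cases hd0 : d = 0
      · obtain ⟨u, hu, hau⟩ := exists_unit_orth h2 a
        refine ⟨‖a‖⁻¹ • a, u, ⟨norm_inv_smul ha0, hu, ?_⟩, ⟨‖a‖, 0, hself ha0,
          by rw [hc, zero_smul]⟩, ⟨0, 0, by rw [hb0, zero_smul], by rw [hd0, zero_smul]⟩⟩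
        rw [inner_smul_left, hau, mul_zero]
      · refine ⟨‖a‖⁻¹ • a, ‖d‖⁻¹ • d, ⟨norm_inv_smul ha0, norm_inv_smul hd0, ?_⟩,
          ⟨‖a‖, 0, hself ha0, by rw [hc, zero_smul]⟩,
          ⟨0, ‖d‖, by rw [hb0, zero_smul], hself hd0⟩⟩
        rw [inner_smul_right, inner_smul_left, had, mul_zero, mul_zero]
    · refine ⟨‖a‖⁻¹ • a, ‖b‖⁻¹ • b, ⟨norm_inv_smul ha0, norm_inv_smul hb0, ?_⟩,
        ⟨‖a‖, _, hself ha0, hnormal ha0 ha⟩, ⟨‖b‖, _, hself hb0, hnormal hb0 hb⟩⟩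
      rw [inner_smul_right, inner_smul_left, hab, mul_zero, mul_zero]

end

end Vale.Agent.P220.R2.H506
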