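import Vale.Agent.P220.R2.H57.Defs

/-!
# P220: the symplectic scaling and Hamiltonian isotopies
-/

open Set Filter Topology
open scoped ContDiff

namespace Vale.Agent.P220.R2.H506

open H57

/-- linear images of tangent vectors -/
theorem tan_image {F : Type} [NormedAddCommGroup F] [NormedSpace ℝ F] (A : F →L[ℝ] F) {S : Set F}
    {x v : F} (hv : v ∈ Tan S x) : A v ∈ Tan (A '' S) (A x) := by
  obtain ⟨γ, h1, h2, h3, h4⟩ := hv
  refine ⟨fun t => A (γ t), A.contDiff.comp h1, fun t => ⟨γ t, h2 t, rfl⟩,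
    congrArg A h3, ?_⟩
  have h5 : HasDerivAt γ v 0 := by
    rw [← h4]
    exact ((h1.differentiable (by simp)) 0).hasDerivAt
  exact (A.hasFDerivAt.comp_hasDerivAt 0 h5).deriv

/-- multiples of tangent vectors -/
theorem tan_smul {F : Type} [NormedAddCommGroup F] [NormedSpace ℝ F] {S : Set F}
    {x v : F} (a : ℝ) (hv : v ∈ Tan S x) : a • v ∈ Tan S x := by
  obtain ⟨γ, h1, h2, h3, h4⟩ := hv
  refine ⟨fun t => γ (a * t), h1.comp (contDiff_const.mul contDiff_id), fun t => h2 _, by simp [h3],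
    ?_⟩
  have h5 : HasDerivAt γ v (a * 0) := by
    rw [mul_zero, ← h4]
    exact ((h1.differentiable (by simp)) 0).hasDerivAt
  have h6 : HasDerivAt (fun t : ℝ => a * t) a 0 := by
    simpa using (hasDerivAt_id (0 : ℝ)).const_mul a
  exact (h5.scomp (0 : ℝ) h6).deriv

variable {E : Type} [NormedAddCommGroup E] [InnerProductSpace ℝ E]

/-- the symplectic scaling as a continuous linear map -/
noncomputable def sclL (E : Type) [NormedAddCommGroup E] [InnerProductSpace ℝ E] (c : ℝ) :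
    (E × E) →L[ℝ] (E × E) :=
  (c • ContinuousLinearMap.fst ℝ E E).prod (c⁻¹ • ContinuousLinearMap.snd ℝ E E)

theorem sclL_apply (c : ℝ) (z : E × E) : sclL E c z = (c • z.1, c⁻¹ • z.2) := rfl

theorem sclL_inv {c : ℝ} (hc : c ≠ 0) (z : E × E) : sclL E c⁻¹ (sclL E c z) = z := by
  rw [sclL_apply, sclL_apply, smul_smul, smul_smul, inv_mul_cancel₀ hc, inv_inv,
    mul_inv_cancel₀ hc, one_smul, one_smul]

theorem sclL_inv' {c : ℝ} (hc : c ≠ 0) (z : E × E) : sclL E c (sclL E c⁻¹ z) = z := by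
  have := sclL_inv (inv_ne_zero hc) z
  rwa [inv_inv] at this

theorem om_sclL {c : ℝ} (hc : c ≠ 0) (u v : E × E) : om (sclL E c u) (sclL E c v) = om u v := by
  simp only [sclL_apply, om, inner_smul_left, inner_smul_right, RCLike.conj_to_real]
  rw [mul_left_comm, inv_mul_cancel_left₀ hc, mul_left_comm, inv_mul_cancel_left₀ hc]

theorem cot_scl {c : ℝ} {Q : Set E} {z : E × E} (hz : z ∈ Cot Q) :
    sclL E c z ∈ Cot ((fun x : E => c • x) '' Q) := by
  refine ⟨⟨z.1, hz.1, rfl⟩, ?_⟩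
  have h1 := tan_image (c • ContinuousLinearMap.id ℝ E) hz.2
  by_cases hc : c = 0
  · have h2 := tan_smul (0 : ℝ) h1
    rw [zero_smul] at h2
    rw [sclL_apply]
    simp only [hc, inv_zero, zero_smul]
    simp only [hc, zero_smul] at h2
    exact h2
  · have h2 := tan_smul (c⁻¹ * c⁻¹) h1
    have h3 : (c⁻¹ * c⁻¹) • (c • ContinuousLinearMap.id ℝ E) z.2 = c⁻¹ • z.2 := by
      show (c⁻¹ * c⁻¹) • (c • z.2) = c⁻¹ • z.2
      rw [smul_smul, mul_assoc, inv_mul_cancel₀ hc, mul_one]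
    rw [h3] at h2
    exact h2

theorem image_inv {c : ℝ} (hc : c ≠ 0) (Q : Set E) :
    (fun x : E => c⁻¹ • x) '' ((fun x : E => c • x) '' Q) = Q := by
  rw [image_image]
  simp only [smul_smul, inv_mul_cancel₀ hc, one_smul, image_id']

theorem cot_scl_inv {c : ℝ} (hc : c ≠ 0) {Q : Set E} {z : E × E}
    (hz : z ∈ Cot ((fun x : E => c • x) '' Q)) : sclL E c⁻¹ z ∈ Cot Q := by
  have := cot_scl (c := c⁻¹) hz
  rwa [image_inv hc] at this

theorem image_cot {c : ℝ} (hc : c ≠ 0) (Q : Set E) :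
    sclL E c '' Cot Q = Cot ((fun x : E => c • x) '' Q) := by
  ext z
  constructor
  · rintro ⟨y, hy, rfl⟩
    exact cot_scl hy
  · intro hz
    exact ⟨sclL E c⁻¹ z, cot_scl_inv hc hz, sclL_inv' hc z⟩

theorem image_cot_inv {c : ℝ} (hc : c ≠ 0) (Q : Set E) :
    sclL E c⁻¹ '' Cot ((fun x : E => c • x) '' Q) = Cot Q := by
  ext z
  constructor
  · rintro ⟨y, hy, rfl⟩
    exact cot_scl_inv hc hy
  · intro hz
    exact ⟨sclL E c z, cot_scl hz, sclL_inv hc z⟩

/-- the scaling maps Hamiltonian isotopies to Hamiltonian isotopies -/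
theorem scale_ham' {Q : Set E} {L : Set (E × E)} {c : ℝ} (hc : c ≠ 0)
    (h : HamIsotopicToZero ((fun x : E => c • x) '' Q)
      ((fun z : E × E => (c • z.1, c⁻¹ • z.2)) '' L)) : HamIsotopicToZero Q L := by
  obtain ⟨H, φ, hH, hφ, hL⟩ := h
  refine ⟨fun x => H (x.1, sclL E c x.2), fun s z => sclL E c⁻¹ (φ s (sclL E c z)), ⟨?_, ?_⟩,
    ⟨?_, ?_⟩, ?_⟩
  · exact hH.smooth.comp (contDiff_fst.prodMk ((sclL E c).contDiff.comp contDiff_snd))
  · obtain ⟨R, hR⟩ := hH.supp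
    refine ⟨|c| * R, fun s z hz hRz => hR s _ (cot_scl hz) ?_⟩
    have h1 : ‖(sclL E c z).2‖ = |c|⁻¹ * ‖z.2‖ := by
      rw [sclL_apply, norm_smul, Real.norm_eq_abs, abs_inv]
    have h2 : 0 < |c| := abs_pos.2 hc
    rw [h1, inv_mul_eq_div, le_div_iff₀ h2, mul_comm]
    exact hRz
  · intro z hz
    show sclL E c⁻¹ (φ 0 (sclL E c z)) = z
    rw [hφ.1 _ (cot_scl hz), sclL_inv hc]
  · intro z hz s hs
    obtain ⟨h1, w, hw, hd, ho⟩ := hφ.2 _ (cot_scl hz) s hs
    refine ⟨cot_scl_inv hc h1, sclL E c⁻¹ w, ?_, ?_, ?_⟩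
    · have h2 := tan_image (sclL E c⁻¹) hw
      rwa [image_cot_inv hc] at h2
    · exact (sclL E c⁻¹).hasFDerivAt.comp_hasDerivWithinAt s hd
    · intro u hu
      have h2 := tan_image (sclL E c) hu
      rw [image_cot hc, sclL_inv' hc] at h2
      have h3 := ho _ h2
      have h4 : om (sclL E c⁻¹ w) u = om w (sclL E c u) := by
        rw [← om_sclL hc (sclL E c⁻¹ w) u, sclL_inv' hc]
      rw [h4, h3]
      have h5 : DifferentiableAt ℝ (fun y => H (s, y)) (sclL E c (sclL E c⁻¹ (φ s (sclL E c z)))) :=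
        ((hH.smooth.comp (contDiff_const.prodMk contDiff_id)).differentiable (by simp)) _
      have h6 : fderiv ℝ (fun y => H (s, sclL E c y)) (sclL E c⁻¹ (φ s (sclL E c z))) =
          (fderiv ℝ (fun y => H (s, y)) (sclL E c (sclL E c⁻¹ (φ s (sclL E c z))))).comp
            (sclL E c) :=
        (h5.hasFDerivAt.comp _ (sclL E c).hasFDerivAt).fderiv
      show -_ = -(fderiv ℝ (fun y => H (s, sclL E c y)) (sclL E c⁻¹ (φ s (sclL E c z)))) u
      rw [h6, sclL_inv' hc]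
      rfl
  · have h1 : sclL E c '' {z | z.1 ∈ Q ∧ z.2 = 0} =
        {z | z.1 ∈ (fun x : E => c • x) '' Q ∧ z.2 = 0} := by
      ext z
      constructor
      · rintro ⟨y, ⟨hy1, hy2⟩, rfl⟩
        refine ⟨⟨y.1, hy1, rfl⟩, ?_⟩
        rw [sclL_apply, hy2, smul_zero]
      · rintro ⟨⟨x, hx, hx2⟩, hz⟩
        refine ⟨(x, 0), ⟨hx, rfl⟩, ?_⟩
        rw [sclL_apply, smul_zero]
        exact Prod.ext hx2 hz.symm
    have h2 : (fun z => sclL E c⁻¹ (φ 1 (sclL E c z))) '' {z | z.1 ∈ Q ∧ z.2 = 0} =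
        sclL E c⁻¹ '' (φ 1 '' (sclL E c '' {z | z.1 ∈ Q ∧ z.2 = 0})) := by
      rw [image_image, image_image]
    rw [h2, h1, hL]
    ext z
    constructor
    · rintro ⟨_, ⟨y, hy, rfl⟩, rfl⟩
      have h3 : sclL E c⁻¹ (c • y.1, c⁻¹ • y.2) = y := sclL_inv hc y
      rw [h3]
      exact hy
    · intro hz
      exact ⟨_, ⟨z, hz, rfl⟩, sclL_inv hc z⟩

end Vale.Agent.P220.R2.H506
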